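import Mathlib

/-! Elementary facts on trees used in the FIID project. -/

namespace Vale.Agent.H8.TreeAux

open SimpleGraph

variable {V : Type} {G : SimpleGraph V}

theorem exists_par (hG : G.IsTree) {o v : V} (h : v ≠ o) :
    ∃ p, G.Adj v p ∧ G.dist o v = G.dist o p + 1 := by
  obtain ⟨w, hw⟩ := hG.connected.exists_walk_length_eq_dist v o
  cases w with
  | nil => exact absurd rfl h
  | cons hadj q =>
    rename_i p
    refine ⟨p, hadj, ?_⟩
    have h1 : G.dist p o ≤ q.length := dist_le q
    rw [Walk.length_cons] at hw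
    rw [G.dist_comm (u := o) (v := v), G.dist_comm (u := o) (v := p)]
    have h2 := hG.dist_eq_dist_add_one_of_adj o hadj
    rw [G.dist_comm (u := o) (v := v), G.dist_comm (u := o) (v := p)] at h2
    omega

theorem path_eq (hG : G.IsTree) {o v : V} {p q : G.Walk v o} (hp : p.IsPath) (hq : q.IsPath) :
    p = q :=
  Subtype.mk.inj ((hG.isAcyclic.subsingleton_path v o).elim ⟨p, hp⟩ ⟨q, hq⟩)

theorem exists_path_cons (hG : G.IsTree) {o v p : V} (hvp : G.Adj v p)
    (hd : G.dist o v = G.dist o p + 1) :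
    ∃ P : G.Walk p o, (Walk.cons hvp P).IsPath := by
  obtain ⟨w, hw⟩ := hG.connected.exists_walk_length_eq_dist p o
  refine ⟨w, ?_⟩
  apply Walk.isPath_of_length_eq_dist
  rw [Walk.length_cons, hw, G.dist_comm (u := p) (v := o), G.dist_comm (u := v) (v := o), hd]

theorem par_unique (hG : G.IsTree) {o v p q : V} (hp : G.Adj v p)
    (hp' : G.dist o v = G.dist o p + 1) (hq : G.Adj v q) (hq' : G.dist o v = G.dist o q + 1) :
    p = q := by
  obtain ⟨P, hP⟩ := exists_path_cons hG hp hp'
  obtain ⟨Q, hQ⟩ := exists_path_cons hG hq hq'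
  have h := path_eq hG hP hQ
  have h1 := congrArg (fun w : G.Walk v o => w.snd) h
  simpa using h1

theorem par_mem (hG : G.IsTree) {D : Set V} (hD : (G.induce D).Connected)
    {o v p : V} (ho : o ∈ D) (hv : v ∈ D) (hvp : G.Adj v p)
    (hd : G.dist o v = G.dist o p + 1) : p ∈ D := by
  classical
  obtain ⟨P, hP⟩ := exists_path_cons hG hvp hd
  obtain ⟨w⟩ := hD.preconnected ⟨v, hv⟩ ⟨o, ho⟩
  let w' : G.Walk v o := w.map (Embedding.induce D).toHom
  have hsup : w'.support = w.support.map (Embedding.induce D).toHom :=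
    Walk.support_map (Embedding.induce D).toHom w
  have hw' : ∀ x ∈ w'.support, x ∈ D := by
    intro x hx
    rw [hsup] at hx
    obtain ⟨y, _, rfl⟩ := List.mem_map.1 hx
    exact y.2
  have h1 : w'.bypass = Walk.cons hvp P := path_eq hG (Walk.bypass_isPath _) hP
  apply hw'
  apply Walk.support_bypass_subset_support
  rw [h1]
  simp

theorem connected_of_par {D : Set V} {o : V} (ho : o ∈ D)
    (h : ∀ v ∈ D, v ≠ o → ∃ p ∈ D, G.Adj v p ∧ G.dist o v = G.dist o p + 1) :
    (G.induce D).Connected := by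
  have key : ∀ n : ℕ, ∀ v (hv : v ∈ D), G.dist o v = n →
      (G.induce D).Reachable ⟨v, hv⟩ ⟨o, ho⟩ := by
    intro n
    induction n using Nat.strong_induction_on with
    | _ n ih =>
      intro v hv hn
      by_cases hvo : v = o
      · subst hvo; exact Reachable.refl _
      · obtain ⟨p, hp, hadj, hd⟩ := h v hv hvo
        have h1 := ih (G.dist o p) (by omega) p hp rfl
        have h2 : (G.induce D).Adj ⟨v, hv⟩ ⟨p, hp⟩ := hadj
        exact h2.reachable.trans h1
  have : Nonempty D := ⟨⟨o, ho⟩⟩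
  refine ⟨fun u v => ?_⟩
  exact (key _ u.1 u.2 rfl).trans (key _ v.1 v.2 rfl).symm

end Vale.Agent.H8.TreeAux
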