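import Vale.Agent.H16.FIID.Defs
import Vale.Agent.H8.TreeAux

/-! Auxiliary facts for M3, M4 of the FIID project. -/

open MeasureTheory
open Vale.Agent.H16.FIID

namespace Vale.Agent.H8.IsingAux

open SimpleGraph Vale.Agent.H8.TreeAux

variable {V : Type} {G : SimpleGraph V}

/-- the cylinder of `η` over `D` -/
def cyl (D : Finset V) (η : V → Bool) : Set (V → Bool) := {σ | ∀ v ∈ D, σ v = η v}

theorem measurableSet_cyl (D : Finset V) (η : V → Bool) : MeasurableSet (cyl D η) := by
  have : cyl D η = ⋂ v ∈ D, (fun σ : V → Bool => σ v) ⁻¹' {η v} := by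
    ext σ; simp [cyl]
  rw [this]
  exact Finset.measurableSet_biInter D fun v _ => measurable_pi_apply v (measurableSet_singleton _)

theorem eq_of_cyl (hG : G.Connected) {μ ν : Measure (V → Bool)} [IsFiniteMeasure μ]
    (F : Finset V) (hF : F.Nonempty)
    (h : ∀ D : Finset V, F ⊆ D → (G.induce (D : Set V)).Connected → ∀ η : V → Bool,
      μ (cyl D η) = ν (cyl D η)) : μ = ν := by
  classical
  have key : ∀ J : Finset V, ν.map J.restrict = μ.map J.restrict := by
    intro J
    obtain ⟨D, hD, hDc⟩ := extend_finset_to_connected hG.preconnected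
      (t := J ∪ F) (hF.mono Finset.subset_union_right)
    have hJD : J ⊆ D := Finset.subset_union_left.trans hD
    have hFD : F ⊆ D := Finset.subset_union_right.trans hD
    have h1 : ν.map D.restrict = μ.map D.restrict := by
      apply Measure.ext_of_singleton
      intro f
      rw [Measure.map_apply (by fun_prop) (measurableSet_singleton _),
        Measure.map_apply (by fun_prop) (measurableSet_singleton _)]
      have h2 : (D.restrict (π := fun _ => Bool)) ⁻¹' {f}
          = cyl D (fun v => if h : v ∈ D then f ⟨v, h⟩ else false) := by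
        ext σ
        simp only [Set.mem_preimage, Set.mem_singleton_iff, cyl, Set.mem_ofPred_eq]
        constructor
        · rintro rfl v hv
          simp [hv]
        · intro hσ
          funext v
          have := hσ v.1 v.2
          simpa using this
      rw [h2, h D hFD hDc]
    have h3 : J.restrict (π := fun _ : V => Bool) = (Finset.restrict₂ hJD) ∘ D.restrict := rfl
    rw [h3, ← Measure.map_map (by fun_prop) (by fun_prop), h1,
      Measure.map_map (by fun_prop) (by fun_prop)]
  exact IsProjectiveLimit.unique (P := fun J : Finset V => μ.map J.restrict)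
    (fun J => rfl) (fun J => key J)

/-- parent towards `o` -/
noncomputable def par (G : SimpleGraph V) (o v : V) : V :=
  letI := Classical.propDecidable
  if h : ∃ p, G.Adj v p ∧ G.dist o v = G.dist o p + 1 then h.choose else v

theorem par_spec (hG : G.IsTree) {o v : V} (h : v ≠ o) :
    G.Adj v (par G o v) ∧ G.dist o v = G.dist o (par G o v) + 1 := by
  have h1 := exists_par hG h
  unfold par
  rw [dif_pos h1]
  exact h1.choose_spec

theorem eq_par (hG : G.IsTree) {o v p : V} (hadj : G.Adj v p)
    (hd : G.dist o v = G.dist o p + 1) : p = par G o v := by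
  have hv : v ≠ o := by
    rintro rfl
    rw [G.dist_self] at hd
    omega
  have h := par_spec hG hv
  exact par_unique hG hadj hd h.1 h.2

theorem mem_edgesIn {D : Finset V} {x y : V} :
    s(x, y) ∈ edgesIn G D ↔ (x ∈ D ∧ y ∈ D) ∧ G.Adj x y := by
  let _ := Classical.decEq V
  let _ := Classical.decPred fun e : Sym2 V => e ∈ G.edgeSet
  unfold edgesIn
  constructor
  · intro h
    obtain ⟨h1, h2⟩ := Finset.mem_filter.1 h
    exact ⟨Finset.mk_mem_sym2_iff.1 h1, G.mem_edgeSet.1 h2⟩
  · rintro ⟨h1, h2⟩
    exact Finset.mem_filter.2 ⟨Finset.mk_mem_sym2_iff.2 h1, G.mem_edgeSet.2 h2⟩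

/-- product over the edges inside a connected set containing `o` -/
theorem prod_edgesIn (hG : G.IsTree) {D : Finset V} (hD : (G.induce (D : Set V)).Connected)
    {o : V} (ho : o ∈ D) [DecidableEq V] (φ : Sym2 V → ℝ) :
    ∏ e ∈ edgesIn G D, φ e = ∏ v ∈ D.erase o, φ s(v, par G o v) := by
  symm
  refine Finset.prod_bij (fun v _ => s(v, par G o v)) ?_ ?_ ?_ (fun _ _ => rfl)
  · intro v hv
    have hvD := Finset.mem_of_mem_erase hv
    have hvo := Finset.ne_of_mem_erase hv
    have h := par_spec hG hvo
    have hp : par G o v ∈ D := par_mem hG hD ho hvD h.1 h.2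
    exact mem_edgesIn.2 ⟨⟨hvD, hp⟩, h.1⟩
  · intro v hv w hw hvw
    have h1 := par_spec hG (Finset.ne_of_mem_erase hv)
    have h2 := par_spec hG (Finset.ne_of_mem_erase hw)
    rw [Sym2.eq_iff] at hvw
    rcases hvw with ⟨h, _⟩ | ⟨h3, h4⟩
    · exact h
    · rw [h4] at h1
      rw [← h3] at h2
      omega
  · intro e he
    induction e using Sym2.ind with
    | _ x y =>
      rw [mem_edgesIn] at he
      obtain ⟨⟨hx, hy⟩, hadj⟩ := he
      rcases hG.dist_eq_dist_add_one_of_adj o hadj with h | h
      · refine ⟨x, Finset.mem_erase.2 ⟨?_, hx⟩, ?_⟩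
        · rintro rfl; rw [G.dist_self] at h; omega
        · rw [← eq_par hG hadj h]
      · refine ⟨y, Finset.mem_erase.2 ⟨?_, hy⟩, ?_⟩
        · rintro rfl; rw [G.dist_self] at h; omega
        · rw [← eq_par hG hadj.symm h]; exact Sym2.eq_swap

/-- Bernoulli measure on `Bool` -/
noncomputable def bern (p : ℝ) : Measure Bool :=
  ENNReal.ofReal p • Measure.dirac true + ENNReal.ofReal (1 - p) • Measure.dirac false

theorem bern_prob {p : ℝ} (h0 : 0 ≤ p) (h1 : p ≤ 1) : IsProbabilityMeasure (bern p) := by
  refine ⟨?_⟩
  simp only [bern, Measure.add_apply, Measure.smul_apply, measure_univ, smul_eq_mul, mul_one]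
  rw [← ENNReal.ofReal_add h0 (by linarith)]
  simp

theorem bern_singleton {p : ℝ} (b : Bool) :
    bern p {b} = ENNReal.ofReal (if b then p else 1 - p) := by
  cases b <;> simp [bern]

/-- the spin at `v` computed from the increments `s` along the first `n` ancestors -/
noncomputable def spin (G : SimpleGraph V) (o : V) : ℕ → V → (V → Bool) → Bool
  | 0, v, s => s v
  | n + 1, v, s => s v == spin G o n (par G o v) s

theorem measurable_spin (o : V) (n : ℕ) : ∀ v, Measurable (spin G o n v) := by
  induction n with
  | zero => intro v; exact measurable_pi_apply v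
  | succ n ih =>
    intro v
    have h1 : Measurable fun p : Bool × Bool => p.1 == p.2 := measurable_of_finite _
    exact h1.comp ((measurable_pi_apply v).prodMk (ih (par G o v)))

/-- the configuration computed from the increments -/
noncomputable def conf (G : SimpleGraph V) (o : V) (s : V → Bool) : V → Bool :=
  fun v => spin G o (G.dist o v) v s

theorem measurable_conf (o : V) : Measurable (conf G o) :=
  measurable_pi_lambda _ fun v => measurable_spin o _ v

theorem conf_root (o : V) (s : V → Bool) : conf G o s o = s o := by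
  simp [conf, spin]

theorem conf_par (hG : G.IsTree) {o v : V} (h : v ≠ o) (s : V → Bool) :
    conf G o s v = (s v == conf G o s (par G o v)) := by
  have h1 := (par_spec hG h).2
  unfold conf
  rw [h1]
  rfl

/-- the increments of `η` -/
noncomputable def incr (G : SimpleGraph V) (o : V) (η : V → Bool) (v : V) : Bool :=
  letI := Classical.decEq V
  if v = o then η o else (η v == η (par G o v))

theorem conf_mem_cyl (hG : G.IsTree) {D : Finset V} (hD : (G.induce (D : Set V)).Connected)
    {o : V} (ho : o ∈ D) (η s : V → Bool) :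
    conf G o s ∈ cyl D η ↔ ∀ v ∈ D, s v = incr G o η v := by
  constructor
  · intro h v hv
    unfold incr
    by_cases hvo : v = o
    · subst hvo
      rw [if_pos rfl, ← h v hv, conf_root]
    · rw [if_neg hvo]
      have h1 := par_spec hG hvo
      have hp : par G o v ∈ D := par_mem hG hD ho hv h1.1 h1.2
      rw [← h v hv, ← h _ hp, conf_par hG hvo]
      cases s v <;> cases conf G o s (par G o v) <;> rfl
  · intro h
    have key : ∀ n : ℕ, ∀ v ∈ D, G.dist o v = n → conf G o s v = η v := by
      intro n
      induction n using Nat.strong_induction_on with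
      | _ n ih =>
        intro v hv hn
        by_cases hvo : v = o
        · subst hvo
          rw [conf_root, h v hv]
          simp [incr]
        · have h1 := par_spec hG hvo
          have hp : par G o v ∈ D := par_mem hG hD ho hv h1.1 h1.2
          rw [conf_par hG hvo, ih (G.dist o (par G o v)) (by omega) _ hp rfl, h v hv]
          simp only [incr, if_neg hvo]
          cases η v <;> cases η (par G o v) <;> rfl
    intro v hv
    exact key _ v hv rfl

/-- the law of the increments -/
noncomputable def incLaw (θ : ℝ) (o v : V) : Measure Bool :=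
  letI := Classical.decEq V
  if v = o then bern (1 / 2) else bern ((1 + θ) / 2)

theorem incLaw_prob {θ : ℝ} (h0 : 0 ≤ θ) (h1 : θ < 1) (o v : V) :
    IsProbabilityMeasure (incLaw θ o v) := by
  unfold incLaw
  split_ifs
  · exact bern_prob (by norm_num) (by norm_num)
  · exact bern_prob (by linarith) (by linarith)

/-- the free Ising measure rooted at `o` -/
noncomputable def isingAt (G : SimpleGraph V) {θ : ℝ} (h0 : 0 ≤ θ) (h1 : θ < 1) (o : V) :
    Measure (V → Bool) :=
  haveI := fun v => incLaw_prob h0 h1 o v
  (Measure.infinitePi (fun v => incLaw θ o v)).map (conf G o)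

theorem isingAt_prob {θ : ℝ} (h0 : 0 ≤ θ) (h1 : θ < 1) (o : V) :
    IsProbabilityMeasure (isingAt G h0 h1 o) := by
  have := fun v => incLaw_prob (V := V) h0 h1 o v
  unfold isingAt
  exact Measure.isProbabilityMeasure_map (measurable_conf o).aemeasurable

theorem isingAt_cyl (hG : G.IsTree) {θ : ℝ} (h0 : 0 ≤ θ) (h1 : θ < 1) {D : Finset V}
    (hD : (G.induce (D : Set V)).Connected) {o : V} (ho : o ∈ D) (η : V → Bool) :
    isingAt G h0 h1 o (cyl D η)
      = ENNReal.ofReal (1 / 2 * ∏ e ∈ edgesIn G D, edgeFactor θ η e) := by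
  classical
  have := fun v => incLaw_prob (V := V) h0 h1 o v
  unfold isingAt
  rw [Measure.map_apply (measurable_conf o) (measurableSet_cyl D η)]
  have hpre : conf G o ⁻¹' cyl D η = Set.pi (D : Set V) (fun v => {incr G o η v}) := by
    ext s
    rw [Set.mem_preimage, conf_mem_cyl hG hD ho]
    simp [Set.mem_pi]
  rw [hpre, Measure.infinitePi_pi _ (fun _ _ => measurableSet_singleton _),
    prod_edgesIn hG hD ho, ← Finset.mul_prod_erase D _ ho, ENNReal.ofReal_mul (by norm_num),
    ENNReal.ofReal_prod_of_nonneg]
  · congr 1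
    · unfold incLaw
      rw [if_pos rfl, bern_singleton]
      congr 1
      split_ifs <;> norm_num
    · refine Finset.prod_congr rfl fun v hv => ?_
      have hvo := Finset.ne_of_mem_erase hv
      simp only [incLaw, if_neg hvo, bern_singleton, incr]
      congr 1
      simp only [edgeFactor, Sym2.lift_mk, sgn]
      cases η v <;> cases η (par G o v) <;> simp <;> ring
  · intro v _
    simp only [edgeFactor, Sym2.lift_mk, sgn]
    cases η v <;> cases η (par G o v) <;> simp <;> linarith

theorem isingAt_eq (hG : G.IsTree) {θ : ℝ} (h0 : 0 ≤ θ) (h1 : θ < 1) (o o' : V) :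
    isingAt G h0 h1 o = isingAt G h0 h1 o' := by
  classical
  have := isingAt_prob (G := G) h0 h1 o
  refine eq_of_cyl hG.connected {o, o'} ⟨o, by simp⟩ ?_
  intro D hF hD η
  rw [isingAt_cyl hG h0 h1 hD (hF (by simp)), isingAt_cyl hG h0 h1 hD (hF (by simp))]

theorem isFreeIsing_isingAt (hG : G.IsTree) {θ : ℝ} (h0 : 0 ≤ θ) (h1 : θ < 1) (o : V) :
    IsFreeIsing G θ (isingAt G h0 h1 o) := by
  intro D hD η
  obtain ⟨⟨o', ho'⟩⟩ := hD.nonempty
  rw [isingAt_eq hG h0 h1 o o']
  exact isingAt_cyl hG h0 h1 hD ho' η

end Vale.Agent.H8.IsingAux
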