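import Vale.Agent.H8.IsingAux

/-! Auxiliary facts for M4a of the FIID project. -/

open MeasureTheory
open Vale.Agent.H16.FIID

namespace Vale.Agent.H8.IsingAux

open SimpleGraph Vale.Agent.H8.TreeAux

variable {V : Type} {G : SimpleGraph V}

/-- extension by `false` -/
noncomputable def ext {D : Finset V} (c : D → Bool) : V → Bool :=
  letI := Classical.propDecidable
  fun v => if h : v ∈ D then c ⟨v, h⟩ else false

theorem ext_mem {D : Finset V} (c : D → Bool) {v : V} (h : v ∈ D) : ext c v = c ⟨v, h⟩ := by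
  unfold ext
  simp [h]

theorem integrable_of_dep {μ : Measure (V → Bool)} [IsFiniteMeasure μ] (B : Finset V)
    (Φ : (V → Bool) → ℝ) (h : ∀ σ σ' : V → Bool, (∀ a ∈ B, σ a = σ' a) → Φ σ = Φ σ') :
    Integrable Φ μ := by
  have h1 : Φ = (fun c : B → Bool => Φ (ext c)) ∘ B.restrict := by
    funext σ
    apply h
    intro a ha
    rw [ext_mem _ ha]; rfl
  rw [h1]
  exact (Integrable.of_finite (f := fun c : B → Bool => Φ (ext c))).comp_measurable
    (by fun_prop)

theorem integral_cyl_sum [DecidableEq V] {μ : Measure (V → Bool)} [IsFiniteMeasure μ] (D : Finset V)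
    (Φ : (V → Bool) → ℝ) (hΦ : Integrable Φ μ) :
    ∫ σ, Φ σ ∂μ = ∑ c : D → Bool, ∫ σ in cyl D (ext c), Φ σ ∂μ := by
  classical
  have hU : (⋃ c : D → Bool, cyl D (ext c)) = Set.univ := by
    ext σ
    simp only [Set.mem_iUnion, Set.mem_univ, iff_true]
    refine ⟨D.restrict σ, fun v hv => ?_⟩
    rw [ext_mem _ hv]; rfl
  rw [← setIntegral_univ, ← hU]
  apply integral_iUnion_fintype
  · intro c; exact measurableSet_cyl D _
  · intro c c' hcc'
    rw [Function.onFun, Set.disjoint_left]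
    intro σ h1 h2
    apply hcc'
    funext v
    have h3 := h1 v.1 v.2
    have h4 := h2 v.1 v.2
    rw [ext_mem _ v.2] at h3 h4
    rw [h3] at h4
    exact h4
  · intro c; exact hΦ.integrableOn

/-- adding a leaf `l` attached at `p` to the set `D` -/
theorem cyl_insert (hG : G.IsTree) {θ : ℝ} (h0 : 0 ≤ θ) (h1 : θ < 1)
    {μ : Measure (V → Bool)} (hμ : IsFreeIsing G θ μ)
    {l p : V} (hlp : G.Adj l p) {D : Finset V} (hp : p ∈ D) (hl : l ∉ D)
    (hD : (G.induce (D : Set V)).Connected) [DecidableEq V]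
    (hD' : (G.induce ((insert l D : Finset V) : Set V)).Connected) (η : V → Bool) :
    μ (cyl (insert l D) η)
      = ENNReal.ofReal ((1 + θ * (sgn (η l) * sgn (η p))) / 2) * μ (cyl D η) := by
  have e1 := hμ D hD η
  have e2 := hμ (insert l D) hD' η
  have hpl : p = par G p l := by
    apply eq_par hG hlp
    rw [G.dist_self, G.dist_comm, dist_eq_one_iff_adj.2 hlp]
  have hne : l ≠ p := fun h => hl (h ▸ hp)
  rw [prod_edgesIn hG hD' (Finset.mem_insert_of_mem hp), Finset.erase_insert_of_ne hne,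
    Finset.prod_insert (fun h => hl (Finset.mem_of_mem_erase h)), ← prod_edgesIn hG hD hp,
    ← hpl] at e2
  unfold cyl
  rw [e1, e2, ← ENNReal.ofReal_mul]
  · congr 1
    simp only [edgeFactor, Sym2.lift_mk]
    ring
  · simp only [sgn]
    cases η l <;> cases η p <;> simp <;> linarith

theorem exists_side (hG : G.IsTree) {l p : V} (hlp : G.Adj l p) (A : Finset V)
    (hA : ∀ a ∈ A, G.dist p a < G.dist l a) [DecidableEq V] :
    ∃ D : Finset V, A ⊆ D ∧ p ∈ D ∧ l ∉ D ∧ (G.induce (D : Set V)).Connected ∧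
      (G.induce ((insert l D : Finset V) : Set V)).Connected := by
  obtain ⟨D0, hD0, hc⟩ := extend_finset_to_connected hG.connected.preconnected
    (t := insert p A) ⟨p, by simp⟩
  have hpD0 : p ∈ D0 := hD0 (by simp)
  have hlp1 : G.dist l p = 1 := dist_eq_one_iff_adj.2 hlp
  have hpl1 : G.dist p l = 1 := dist_eq_one_iff_adj.2 hlp.symm
  set D : Finset V := D0.filter (fun x => G.dist p x < G.dist l x) with hD
  have hpD : p ∈ D := by
    rw [hD, Finset.mem_filter]
    exact ⟨hpD0, by rw [G.dist_self, hlp1]; norm_num⟩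
  have hlD : l ∉ D := by
    rw [hD, Finset.mem_filter]
    rintro ⟨_, h⟩
    rw [G.dist_self] at h
    omega
  have hpar : ∀ v ∈ D, v ≠ p → ∃ q ∈ D, G.Adj v q ∧ G.dist p v = G.dist p q + 1 := by
    intro v hv hvp
    rw [hD, Finset.mem_filter] at hv
    obtain ⟨hv0, hv1⟩ := hv
    have hs := par_spec hG hvp
    refine ⟨par G p v, ?_, hs.1, hs.2⟩
    rw [hD, Finset.mem_filter]
    refine ⟨par_mem hG hc hpD0 hv0 hs.1 hs.2, ?_⟩
    have h2 : G.dist l v ≤ G.dist l (par G p v) + G.dist (par G p v) v :=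
      hG.connected.dist_triangle
    rw [dist_eq_one_iff_adj.2 hs.1.symm] at h2
    omega
  refine ⟨D, ?_, hpD, hlD, ?_, ?_⟩
  · intro a ha
    rw [hD, Finset.mem_filter]
    exact ⟨hD0 (Finset.mem_insert_of_mem ha), hA a ha⟩
  · exact connected_of_par (o := p) hpD hpar
  · apply connected_of_par (o := p) (by simp [hpD])
    intro v hv hvp
    rcases Finset.mem_insert.1 (Finset.mem_coe.1 hv) with rfl | hv
    · exact ⟨p, by simp [hpD], hlp, by rw [G.dist_self, hpl1]⟩
    · obtain ⟨q, hq, h⟩ := hpar v hv hvp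
      exact ⟨q, by simp [hq], h⟩

end Vale.Agent.H8.IsingAux
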