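import Mathlib

namespace Vale.Agent.H8.P061

/-- A loopless multigraph with vertex type `V` and edge type `E` (every element of `E` is one
edge copy, so parallel edges are allowed and counted separately). -/
structure Multigraph (V E : Type) where
  ends : E → Sym2 V
  loopless : ∀ e, ¬ (ends e).IsDiag

variable {V E : Type}

/-- The edge cut `δ(S)`: the edge copies with exactly one endpoint in `S`. -/
def Multigraph.cut (G : Multigraph V E) (S : Set V) : Set E :=
  {e | ∃ u v, G.ends e = s(u, v) ∧ u ∈ S ∧ v ∉ S}

/-- `k`-edge-connectivity: every nonempty proper vertex set has at least `k` edges leaving it. -/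
def Multigraph.EdgeConnected (G : Multigraph V E) (k : ℕ) : Prop :=
  ∀ S : Set V, S.Nonempty → S ≠ Set.univ → k ≤ (G.cut S).ncard

/-- `T` is a spanning tree: `|V| - 1` edge copies whose underlying simple graph on `V` is
connected. -/
def Multigraph.IsSpanningTree (G : Multigraph V E) (T : Set E) : Prop :=
  (SimpleGraph.fromRel (fun u v => ∃ e ∈ T, G.ends e = s(u, v))).Connected ∧
    T.ncard + 1 = Nat.card V

/-- `T` is `α`-thin: `|δ_T(S)| ≤ α |δ_G(S)|` for every nonempty proper `S`. -/
def Multigraph.IsThin (G : Multigraph V E) (α : ℝ) (T : Set E) : Prop :=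
  ∀ S : Set V, S.Nonempty → S ≠ Set.univ →
    ((T ∩ G.cut S).ncard : ℝ) ≤ α * ((G.cut S).ncard : ℝ)

/-- Treedepth at most `h`: there is a rooted forest on `V` in which every vertex has at most `h`
ancestors (itself included), given by its ancestor order `anc`, such that the two endpoints of
every edge of `G` are comparable. -/
def Multigraph.TreedepthLE (G : Multigraph V E) (h : ℕ) : Prop :=
  ∃ anc : V → V → Prop, IsPartialOrder V anc ∧
    (∀ v a b, anc a v → anc b v → anc a b ∨ anc b a) ∧
    (∀ v, {a | anc a v}.ncard ≤ h) ∧
    ∀ e u v, G.ends e = s(u, v) → anc u v ∨ anc v u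


end Vale.Agent.H8.P061
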