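import Vale.Agent.H8.P061Defs

namespace Vale.Agent.H8.P061

variable {V E : Type}

/-! ### Proof -/

/-- follow the parent pointer `π` from `x` until leaving the set of strict descendants of `v` -/
inductive Path (lt : V → V → Prop) (π : V → V) (v : V) : V → V → Prop
  | stop {x : V} : ¬ lt v x → Path lt π v x x
  | step {x a : V} : lt v x → Path lt π v (π x) a → Path lt π v x a

lemma path_congr {lt : V → V → Prop} {π π' : V → V} {v : V} (hπ : ∀ x, lt v x → π x = π' x)
    {x a : V} (hp : Path lt π v x a) : Path lt π' v x a := by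
  induction hp with
  | stop h => exact Path.stop h
  | step h _ ih => exact Path.step h (hπ _ h ▸ ih)

lemma mem_cut_iff (G : Multigraph V E) (S : Set V) {y : E} {p q : V} (hy : G.ends y = s(p, q)) :
    y ∈ G.cut S ↔ ¬ (p ∈ S ↔ q ∈ S) := by
  unfold Multigraph.cut
  simp only [Set.mem_ofPred_eq]
  constructor
  · rintro ⟨u, v, huv, hu, hv⟩
    rw [hy] at huv
    rcases Sym2.eq_iff.1 huv with ⟨rfl, rfl⟩ | ⟨rfl, rfl⟩ <;> tauto
  · intro h
    by_cases hp : p ∈ S
    · exact ⟨p, q, hy, hp, by tauto⟩
    · exact ⟨q, p, by rw [hy]; exact Sym2.eq_swap, by tauto, hp⟩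

section

variable [Finite V] [Finite E] (G : Multigraph V E) (le : V → V → Prop) [hpo : IsPartialOrder V le]

/-- strict ancestor -/
def slt (le : V → V → Prop) (a v : V) : Prop := le a v ∧ a ≠ v

def M (π : V → V) (v a : V) : Set E :=
  {y | ∃ p q, G.ends y = s(p, q) ∧ Path (slt le) π v p v ∧ Path (slt le) π v q a}

omit [Finite V] [Finite E] in
lemma M_congr {π π' : V → V} {v : V} (hπ : ∀ x, slt le v x → π x = π' x) (a : V) :
    M G le π v a = M G le π' v a := by
  ext y
  constructor
  · rintro ⟨p, q, h1, h2, h3⟩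
    exact ⟨p, q, h1, path_congr hπ h2, path_congr hπ h3⟩
  · rintro ⟨p, q, h1, h2, h3⟩
    have h' : ∀ x, slt le v x → π' x = π x := fun x hx => (hπ x hx).symm
    exact ⟨p, q, h1, path_congr h' h2, path_congr h' h3⟩

noncomputable def dep (v : V) : ℕ := {a | le a v}.ncard

omit [Finite E] in
lemma dep_lt {a v : V} (h : slt le a v) : dep le a < dep le v := by
  unfold dep
  apply Set.ncard_lt_ncard _ (Set.toFinite _)
  refine ⟨fun x hx => hpo.trans _ _ _ hx h.1, fun hsub => ?_⟩
  have : le v a := hsub (show le v v from hpo.refl v)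
  exact h.2 (hpo.antisymm _ _ h.1 this)

lemma slt_trans {a b c : V} (h1 : slt le a b) (h2 : slt le b c) : slt le a c := by
  refine ⟨hpo.trans _ _ _ h1.1 h2.1, ?_⟩
  rintro rfl
  exact h1.2 (hpo.antisymm _ _ h1.1 h2.1)

lemma exists_path {π : V → V} {v : V}
    (hchain : ∀ v a b, le a v → le b v → le a b ∨ le b a)
    (hπ : ∀ x, slt le v x → slt le (π x) x) :
    ∀ n x, dep le x ≤ n → (le v x ∨ le x v) → ∃ a, le a v ∧ Path (slt le) π v x a := by
  intro n
  induction n with
  | zero =>
    intro x hx hc
    exfalso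
    have : 0 < dep le x := by
      unfold dep
      rw [Set.ncard_pos (Set.toFinite _)]
      exact ⟨x, hpo.refl x⟩
    omega
  | succ n ih =>
    intro x hx hc
    by_cases hvx : slt le v x
    · have h1 := hπ x hvx
      have h2 := dep_lt le h1
      obtain ⟨a, ha, hp⟩ := ih (π x) (by omega) (by
        rcases hchain x v (π x) hvx.1 h1.1 with h | h
        · exact Or.inl h
        · exact Or.inr h)
      exact ⟨a, ha, Path.step hvx hp⟩
    · refine ⟨x, ?_, Path.stop hvx⟩
      rcases hc with h | h
      · by_cases hvx' : v = x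
        · rw [hvx']; exact hpo.refl x
        · exact absurd ⟨h, hvx'⟩ hvx
      · exact h

lemma path_self_le {π : V → V} {v p : V} (h : Path (slt le) π v p v) : le v p := by
  cases h with
  | stop h => exact hpo.refl _
  | step h _ => exact h.1

omit [Finite V] hpo in
lemma path_det {π : V → V} {v x a b : V} (h1 : Path (slt le) π v x a)
    (h2 : Path (slt le) π v x b) : a = b := by
  induction h1 with
  | stop h =>
    cases h2 with
    | stop _ => rfl
    | step h' _ => exact absurd h' h
  | step h _ ih =>
    cases h2 with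
    | stop h' => exact absurd h h'
    | step _ h'' => exact ih h''

lemma path_conv {π : V → V} {u v x a b : V} (hvu : slt le v u) (h1 : Path (slt le) π u x a)
    (h2 : Path (slt le) π v x b) : Path (slt le) π v a b := by
  induction h1 with
  | stop h => exact h2
  | step h _ ih =>
    cases h2 with
    | stop h' => exact absurd (slt_trans le hvu h) h'
    | step _ h'' => exact ih h''

omit [Finite E] in
/-- the classes `M v (π v)` are disjoint for comparable vertices -/
lemma M_disj {π : V → V} {u v : V} (hvu : slt le v u) (hne : π v ≠ v) {y : E}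
    (hu : y ∈ M G le π u (π u)) (hv : y ∈ M G le π v (π v)) : False := by
  obtain ⟨p, q, hy, hp, hq⟩ := hu
  obtain ⟨p', q', hy', hp', hq'⟩ := hv
  have hstep : ∀ t, Path (slt le) π v u t → Path (slt le) π v (π u) t := by
    intro t ht
    cases ht with
    | stop h => exact absurd hvu h
    | step _ h => exact h
  rw [hy] at hy'
  rcases Sym2.eq_iff.1 hy' with ⟨h1, h2⟩ | ⟨h1, h2⟩
  · rw [← h1] at hp'
    rw [← h2] at hq'
    have h3 := hstep _ (path_conv le hvu hp hp')
    have h4 := path_conv le hvu hq hq'
    exact hne (path_det le h4 h3)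
  · rw [← h2] at hp'
    rw [← h1] at hq'
    have h3 := path_conv le hvu hq hp'
    have h4 := hstep _ (path_conv le hvu hp hq')
    exact hne (path_det le h4 h3)

/-- existence of a popular target class -/
lemma exists_good {k h : ℕ} (hk : G.EdgeConnected k)
    (hchain : ∀ v a b, le a v → le b v → le a b ∨ le b a)
    (hh : ∀ v, {a | le a v}.ncard ≤ h)
    (hE : ∀ e u v, G.ends e = s(u, v) → le u v ∨ le v u)
    {π : V → V} {v : V} (hπ : ∀ x, slt le v x → slt le (π x) x)
    (hv : ∃ a, slt le a v) :
    ∃ a, slt le a v ∧ k ≤ (h - 1) * (M G le π v a).ncard := by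
  classical
  have := Fintype.ofFinite V
  have := Fintype.ofFinite E
  set K : Set V := {x | Path (slt le) π v x v} with hK
  have hvK : v ∈ K := Path.stop (fun h => h.2 rfl)
  obtain ⟨a0, ha0⟩ := hv
  have ha0K : a0 ∉ K := by
    intro hmem
    have h1 : le v a0 := path_self_le le hmem
    exact ha0.2 (hpo.antisymm _ _ ha0.1 h1)
  have hcut : k ≤ (G.cut K).ncard :=
    hk K ⟨v, hvK⟩ (fun h => ha0K (h ▸ Set.mem_univ a0))
  set A : Finset V := Finset.univ.filter (fun a => slt le a v) with hA
  have hAne : A.Nonempty := ⟨a0, by simp [hA, ha0]⟩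
  have hAcard : A.card ≤ h - 1 := by
    have h1 : insert v A ⊆ Finset.univ.filter (fun a => le a v) := by
      intro a ha
      rw [Finset.mem_insert] at ha
      rcases ha with rfl | ha
      · simp [hpo.refl a]
      · simp only [hA, Finset.mem_filter, Finset.mem_univ, true_and] at ha ⊢
        exact ha.1
    have h2 := Finset.card_le_card h1
    have h3 : v ∉ A := fun h => (Finset.mem_filter.1 h).2.2 rfl
    rw [Finset.card_insert_of_notMem h3] at h2
    have h4 : (Finset.univ.filter (fun a => le a v)).card = {a | le a v}.ncard := by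
      rw [← Set.ncard_coe_finset]; congr 1; ext; simp
    have h5 := hh v
    omega
  have hsub : (G.cut K) ⊆ ⋃ a ∈ A, M G le π v a := by
    rintro y ⟨p, q, hy, hp, hq⟩
    have hvp : le v p := path_self_le le hp
    have hvq : le v q ∨ le q v := by
      rcases hE y p q hy with h1 | h1
      · exact Or.inl (hpo.trans _ _ _ hvp h1)
      · exact hchain p v q hvp h1
    obtain ⟨a, ha, hpa⟩ := exists_path le hchain hπ _ q le_rfl hvq
    have hav : a ≠ v := by
      rintro rfl
      exact hq hpa
    simp only [Set.mem_iUnion]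
    exact ⟨a, Finset.mem_filter.2 ⟨Finset.mem_univ _, ha, hav⟩, p, q, hy, hp, hpa⟩
  have hle : (G.cut K).ncard ≤ ∑ a ∈ A, (M G le π v a).ncard := by
    calc (G.cut K).ncard ≤ (⋃ a ∈ A, M G le π v a).ncard :=
          Set.ncard_le_ncard hsub (Set.toFinite _)
      _ ≤ ∑ a ∈ A, (M G le π v a).ncard := by
          exact Finset.set_ncard_biUnion_le A _
  by_contra hcon
  push Not at hcon
  have h1 : ∑ a ∈ A, ((h - 1) * (M G le π v a).ncard) < ∑ _a ∈ A, k := by
    apply Finset.sum_lt_sum_of_nonempty hAne
    intro a ha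
    exact hcon a (by simpa [hA] using ha)
  rw [Finset.sum_const, smul_eq_mul, ← Finset.mul_sum] at h1
  have h2 : A.card * k ≤ (h - 1) * k := Nat.mul_le_mul_right k hAcard
  have h3 : (h - 1) * k ≤ (h - 1) * ∑ a ∈ A, (M G le π v a).ncard :=
    Nat.mul_le_mul_left _ (hcut.trans hle)
  omega

/-- construction of the parent pointers, deepest vertices first -/
lemma exists_pi {k h : ℕ} (hk : G.EdgeConnected k)
    (hchain : ∀ v a b, le a v → le b v → le a b ∨ le b a)
    (hh : ∀ v, {a | le a v}.ncard ≤ h)
    (hE : ∀ e u v, G.ends e = s(u, v) → le u v ∨ le v u) :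
    ∃ π : V → V, ∀ v, (∃ a, slt le a v) →
      slt le (π v) v ∧ k ≤ (h - 1) * (M G le π v (π v)).ncard := by
  classical
  have key : ∀ m, ∃ π : V → V, ∀ v, (∃ a, slt le a v) → h + 1 ≤ dep le v + m →
      slt le (π v) v ∧ k ≤ (h - 1) * (M G le π v (π v)).ncard := by
    intro m
    induction m with
    | zero =>
      refine ⟨id, fun v _ hd => ?_⟩
      exfalso
      have h1 : dep le v ≤ h := hh v
      omega
    | succ m ih =>
      obtain ⟨π, hπ⟩ := ih
      have hex : ∀ v, (∃ a, slt le a v) → h + 1 ≤ dep le v + (m + 1) →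
          ∃ a, slt le a v ∧ k ≤ (h - 1) * (M G le π v a).ncard := by
        intro v hv hd
        apply exists_good G le hk hchain hh hE _ hv
        intro x hx
        have h1 := dep_lt le hx
        exact (hπ x ⟨v, hx⟩ (by omega)).1
      refine ⟨fun v => if hv : (∃ a, slt le a v) ∧ dep le v + m = h then
          (hex v hv.1 (by omega)).choose else π v, fun v hv hd => ?_⟩
      have hagree : ∀ x, slt le v x → (if hv : (∃ a, slt le a x) ∧ dep le x + m = h then
          (hex x hv.1 (by omega)).choose else π x) = π x := by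
        intro x hx
        have h1 := dep_lt le hx
        rw [dif_neg]
        rintro ⟨_, h2⟩
        omega
      rw [M_congr G le hagree]
      by_cases hd' : dep le v + m = h
      · have hspec := (hex v hv (by omega)).choose_spec
        simp only [dif_pos (And.intro hv hd')]
        exact hspec
      · have hne : ¬ ((∃ a, slt le a v) ∧ dep le v + m = h) := fun hc => hd' hc.2
        simp only [dif_neg hne]
        exact hπ v hv (by omega)
  obtain ⟨π, hπ⟩ := key (h + 1)
  exact ⟨π, fun v hv => hπ v hv (by omega)⟩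

lemma mono_claim {π : V → V} {e : V → E}
    (he : ∀ v, (∃ a, slt le a v) → e v ∈ M G le π v (π v)) (S : Set V) :
    ∀ n v, Nat.card V ≤ dep le v + n → (∀ u, slt le v u → e u ∉ G.cut S) →
      ∀ x a, Path (slt le) π v x a → (x ∈ S ↔ a ∈ S) := by
  intro n
  induction n with
  | zero =>
    intro v hv hu x a hp
    induction hp with
    | stop _ => exact Iff.rfl
    | @step x a h _ _ =>
      exfalso
      have h1 := dep_lt le h
      have h2 : dep le x ≤ Nat.card V := Set.ncard_le_card {a | le a x}
      omega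
  | succ n ih =>
    intro v hv hu x a hp
    induction hp with
    | stop _ => exact Iff.rfl
    | @step x a h _ ih2 =>
      rw [← ih2]
      have h1 := dep_lt le h
      have hx := ih x (by omega) (fun u hxu => hu u (slt_trans le h hxu))
      obtain ⟨p, q, hy, hp, hq⟩ := he x ⟨v, h⟩
      have h2 := hu x h
      rw [mem_cut_iff G S hy, not_not] at h2
      rw [← hx p x hp, ← hx q (π x) hq]
      exact h2

end

theorem main : ∀ (h k : ℕ), 1 ≤ k → ∀ (V E : Type) [Finite V] [Finite E] [Nontrivial V]
    (G : Multigraph V E), G.EdgeConnected k → G.TreedepthLE h →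
    ∃ T : Set E, G.IsSpanningTree T ∧ G.IsThin (((h : ℝ) - 1) ^ 2 / k) T := by
  classical
  intro h k hk1 V E _ _ _ G hk htd
  have := Fintype.ofFinite V
  have := Fintype.ofFinite E
  obtain ⟨le, hpo, hchain, hh, hE⟩ := htd
  obtain ⟨π, hπ⟩ := exists_pi G le hk hchain hh hE
  -- the root
  obtain ⟨r, hr⟩ : ∃ r : V, ∀ x, dep le r ≤ dep le x := by
    obtain ⟨r, -, hr⟩ := Finset.exists_min_image (Finset.univ : Finset V) (dep le)
      Finset.univ_nonempty
    exact ⟨r, fun x => hr x (Finset.mem_univ x)⟩
  have hrroot : ∀ a, ¬ slt le a r := fun a ha => by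
    have := dep_lt le ha
    have := hr a
    omega
  have hrall : ∀ x, le r x := by
    by_contra hcon
    have hne : {x | le r x} ≠ Set.univ := by
      intro h1
      apply hcon
      intro x
      have : x ∈ {x | le r x} := h1 ▸ Set.mem_univ x
      exact this
    have h1 := hk {x | le r x} ⟨r, hpo.refl r⟩ hne
    have h2 : G.cut {x | le r x} = ∅ := by
      ext y
      simp only [Set.mem_empty_iff_false, iff_false]
      rintro ⟨p, q, hy, hp, hq⟩
      apply hq
      simp only [Set.mem_ofPred_eq] at hp hq ⊢
      rcases hE y p q hy with h3 | h3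
      · exact hpo.trans _ _ _ hp h3
      · rcases hchain p r q hp h3 with h4 | h4
        · exact h4
        · by_cases hqr : q = r
          · rw [hqr]; exact hpo.refl r
          · exact absurd ⟨h4, hqr⟩ (hrroot q)
    rw [h2, Set.ncard_empty] at h1
    omega
  have hnonroot : ∀ v, v ≠ r → ∃ a, slt le a v := fun v hv => ⟨r, hrall v, fun h => hv h.symm⟩
  have hnr : ∀ v, (∃ a, slt le a v) → v ≠ r := by
    rintro v ⟨a, ha⟩ rfl
    exact hrroot a ha
  -- the chosen edges
  have hchoose : ∀ v, ∃ y : E, (∃ a, slt le a v) → y ∈ M G le π v (π v) := by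
    intro v
    by_cases hv : ∃ a, slt le a v
    · have h1 := (hπ v hv).2
      have h2 : (M G le π v (π v)).ncard ≠ 0 := by
        intro h0
        rw [h0] at h1
        omega
      obtain ⟨y, hy⟩ := Set.nonempty_of_ncard_ne_zero h2
      exact ⟨y, fun _ => hy⟩
    · -- some edge exists at all
      obtain ⟨x, y, hxy⟩ := exists_pair_ne V
      have h1 := hk {x} ⟨x, rfl⟩ (by
        intro h1
        have : y ∈ ({x} : Set V) := h1 ▸ Set.mem_univ y
        exact hxy (Set.mem_singleton_iff.1 this).symm)
      have h2 : (G.cut {x}).ncard ≠ 0 := by omega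
      obtain ⟨z, -⟩ := Set.nonempty_of_ncard_ne_zero h2
      exact ⟨z, fun h => absurd h hv⟩
  choose e he using hchoose
  set T : Set E := e '' {v | v ≠ r} with hT
  have hmono := mono_claim G le he
  -- connectedness
  have hconn : (SimpleGraph.fromRel (fun u v => ∃ e ∈ T, G.ends e = s(u, v))).Connected := by
    rw [SimpleGraph.connected_iff_exists_forall_reachable]
    refine ⟨r, ?_⟩
    set H := SimpleGraph.fromRel (fun u v => ∃ e ∈ T, G.ends e = s(u, v)) with hH
    set R : Set V := {x | H.Reachable r x} with hR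
    have hnc : ∀ y ∈ T, y ∉ G.cut R := by
      rintro y hy ⟨p, q, hy2, hp, hq⟩
      apply hq
      have hpq : p ≠ q := by
        rintro rfl
        apply G.loopless y
        rw [hy2]
        exact rfl
      have hadj : H.Adj p q := by
        rw [hH, SimpleGraph.fromRel_adj]
        exact ⟨hpq, Or.inl ⟨y, hy, hy2⟩⟩
      exact SimpleGraph.Reachable.trans hp hadj.reachable
    have hstep : ∀ x, x ≠ r → (x ∈ R ↔ π x ∈ R) := by
      intro x hx
      have h1 := hmono R (Nat.card V) x (by omega)
        (fun u hu => hnc _ ⟨u, hnr u ⟨x, hu⟩, rfl⟩)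
      obtain ⟨p, q, hy, hp, hq⟩ := he x (hnonroot x hx)
      have h2 := hnc (e x) ⟨x, hx, rfl⟩
      rw [mem_cut_iff G R hy, not_not] at h2
      rw [← h1 p x hp, ← h1 q (π x) hq]
      exact h2
    have hall : ∀ n x, dep le x ≤ n → x ∈ R := by
      intro n
      induction n with
      | zero =>
        intro x hx
        exfalso
        have : 0 < dep le x := by
          unfold dep
          rw [Set.ncard_pos (Set.toFinite _)]
          exact ⟨x, hpo.refl x⟩
        omega
      | succ n ih =>
        intro x hx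
        by_cases hxr : x = r
        · rw [hxr]; exact SimpleGraph.Reachable.refl r
        · rw [hstep x hxr]
          apply ih
          have := dep_lt le (hπ x (hnonroot x hxr)).1
          omega
    intro x
    exact hall _ x le_rfl
  have hTle : T.ncard + 1 ≤ Nat.card V := by
    have h1 : T.ncard ≤ {v | v ≠ r}.ncard := Set.ncard_image_le (Set.toFinite _)
    have h2 : {v | v ≠ r}.ncard + 1 = Nat.card V := by
      have h3 : {v | v ≠ r} = ({r} : Set V)ᶜ := by ext; simp
      rw [h3]
      have h4 := Set.ncard_add_ncard_compl ({r} : Set V)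
      rw [Set.ncard_singleton] at h4
      omega
    omega
  have hTge : Nat.card V ≤ T.ncard + 1 := by
    have h1 := hconn.card_vert_le_card_edgeSet_add_one
    have h2 : (SimpleGraph.fromRel (fun u v => ∃ e ∈ T, G.ends e = s(u, v))).edgeSet
        ⊆ G.ends '' T := by
      intro z hz
      induction z using Sym2.ind with
      | _ p q =>
        rw [SimpleGraph.mem_edgeSet, SimpleGraph.fromRel_adj] at hz
        rcases hz.2 with ⟨y, hy, hy2⟩ | ⟨y, hy, hy2⟩
        · exact ⟨y, hy, hy2⟩
        · exact ⟨y, hy, hy2.trans Sym2.eq_swap⟩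
    have h3 := (Set.ncard_le_ncard h2 (Set.toFinite _)).trans (Set.ncard_image_le (Set.toFinite _))
    rw [← Nat.card_coe_set_eq] at h3
    omega
  refine ⟨T, ⟨hconn, by omega⟩, ?_⟩
  -- thinness
  intro S hSne hSuniv
  set X : Finset V := Finset.univ.filter (fun v => v ≠ r ∧ e v ∈ G.cut S) with hX
  set Xg : Finset V := Finset.univ.filter
    (fun v => v ≠ r ∧ e v ∈ G.cut S ∧ M G le π v (π v) ⊆ G.cut S) with hXg
  have hT1 : (T ∩ G.cut S).ncard ≤ X.card := by
    have h1 : T ∩ G.cut S ⊆ e '' (X : Set V) := by
      rintro y ⟨⟨v, hv, rfl⟩, hy⟩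
      exact ⟨v, by simpa [hX] using ⟨hv, hy⟩, rfl⟩
    calc (T ∩ G.cut S).ncard ≤ (e '' (X : Set V)).ncard := Set.ncard_le_ncard h1 (Set.toFinite _)
      _ ≤ (X : Set V).ncard := Set.ncard_image_le (Set.toFinite _)
      _ = X.card := Set.ncard_coe_finset X
  -- number of non-root ancestors
  have hanc : ∀ u, (Finset.univ.filter (fun v => v ≠ r ∧ le v u)).card ≤ h - 1 := by
    intro u
    have h1 : insert r (Finset.univ.filter (fun v => v ≠ r ∧ le v u)) ⊆
        Finset.univ.filter (fun a => le a u) := by
      intro a ha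
      rw [Finset.mem_insert] at ha
      rcases ha with rfl | ha
      · simp [hrall u]
      · simp only [Finset.mem_filter, Finset.mem_univ, true_and] at ha ⊢
        exact ha.2
    have h2 := Finset.card_le_card h1
    rw [Finset.card_insert_of_notMem (by simp)] at h2
    have h4 : (Finset.univ.filter (fun a => le a u)).card = {a | le a u}.ncard := by
      rw [← Set.ncard_coe_finset]; congr 1; ext; simp
    have h5 := hh u
    omega
  -- every crossing vertex lies above a good one
  have hclaim : ∀ n v, Nat.card V ≤ dep le v + n → v ∈ X → ∃ u ∈ Xg, le v u := by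
    intro n
    induction n with
    | zero =>
      intro v hv hvX
      refine ⟨v, ?_, hpo.refl v⟩
      have hno : ∀ u, slt le v u → e u ∉ G.cut S := by
        intro u hu
        have h1 := dep_lt le hu
        have h2 : dep le u ≤ Nat.card V := Set.ncard_le_card {a | le a u}
        omega
      have h1 := hmono S 0 v hv hno
      simp only [hX, Finset.mem_filter, Finset.mem_univ, true_and] at hvX
      simp only [hXg, Finset.mem_filter, Finset.mem_univ, true_and]
      refine ⟨hvX.1, hvX.2, ?_⟩
      rintro y ⟨p, q, hy, hp, hq⟩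
      obtain ⟨p', q', hy', hp', hq'⟩ := he v (hnonroot v hvX.1)
      have h2 := hvX.2
      rw [mem_cut_iff G S hy', h1 p' v hp', h1 q' (π v) hq'] at h2
      rw [mem_cut_iff G S hy, h1 p v hp, h1 q (π v) hq]
      exact h2
    | succ n ih =>
      intro v hv hvX
      by_cases hno : ∀ u, slt le v u → e u ∉ G.cut S
      · refine ⟨v, ?_, hpo.refl v⟩
        have h1 := hmono S (n + 1) v hv hno
        simp only [hX, Finset.mem_filter, Finset.mem_univ, true_and] at hvX
        simp only [hXg, Finset.mem_filter, Finset.mem_univ, true_and]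
        refine ⟨hvX.1, hvX.2, ?_⟩
        rintro y ⟨p, q, hy, hp, hq⟩
        obtain ⟨p', q', hy', hp', hq'⟩ := he v (hnonroot v hvX.1)
        have h2 := hvX.2
        rw [mem_cut_iff G S hy', h1 p' v hp', h1 q' (π v) hq'] at h2
        rw [mem_cut_iff G S hy, h1 p v hp, h1 q (π v) hq]
        exact h2
      · push Not at hno
        obtain ⟨u, hu, huc⟩ := hno
        have h1 := dep_lt le hu
        obtain ⟨u', hu', hle⟩ := ih u (by omega)
          (by simp only [hX, Finset.mem_filter, Finset.mem_univ, true_and]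
              exact ⟨hnr u ⟨v, hu⟩, huc⟩)
        exact ⟨u', hu', hpo.trans _ _ _ hu.1 hle⟩
  have hXle : X.card ≤ (h - 1) * Xg.card := by
    have h1 : X ⊆ Xg.biUnion (fun u => Finset.univ.filter (fun v => v ≠ r ∧ le v u)) := by
      intro v hv
      obtain ⟨u, hu, hle⟩ := hclaim (Nat.card V) v (by omega) hv
      rw [Finset.mem_biUnion]
      refine ⟨u, hu, ?_⟩
      simp only [hX, Finset.mem_filter, Finset.mem_univ, true_and] at hv ⊢
      exact ⟨hv.1, hle⟩
    calc X.card ≤ _ := Finset.card_le_card h1
      _ ≤ ∑ u ∈ Xg, (Finset.univ.filter (fun v => v ≠ r ∧ le v u)).card :=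
        Finset.card_biUnion_le
      _ ≤ ∑ _u ∈ Xg, (h - 1) := Finset.sum_le_sum (fun u _ => hanc u)
      _ = (h - 1) * Xg.card := by rw [Finset.sum_const, smul_eq_mul, mul_comm]
  have hXgk : Xg.card * k ≤ (h - 1) * ∑ u ∈ Xg, (M G le π u (π u)).ncard := by
    rw [Finset.mul_sum, ← smul_eq_mul, ← Finset.sum_const]
    apply Finset.sum_le_sum
    intro u hu
    simp only [hXg, Finset.mem_filter, Finset.mem_univ, true_and] at hu
    exact (hπ u (hnonroot u hu.1)).2
  have hdc : ∑ u ∈ Xg, (M G le π u (π u)).ncard ≤ (G.cut S).ncard := by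
    set F : V → Finset E := fun u => Finset.univ.filter (fun y => y ∈ M G le π u (π u)) with hF
    have hFc : ∀ u, (F u).card = (M G le π u (π u)).ncard := by
      intro u
      rw [← Set.ncard_coe_finset]; congr 1; ext; simp [hF]
    have hdisj : (Xg : Set V).PairwiseDisjoint F := by
      intro u hu v hv huv
      rw [Function.onFun, Finset.disjoint_left]
      intro y hyu hyv
      simp only [hF, Finset.mem_filter, Finset.mem_univ, true_and] at hyu hyv
      simp only [hXg, Finset.coe_filter, Finset.mem_univ, true_and, Set.mem_ofPred_eq] at hu hv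
      -- both `u` and `v` are ancestors of the lower endpoint of `y`
      obtain ⟨p, q, hpq, hqp⟩ : ∃ p q, G.ends y = s(p, q) ∧ le q p := by
        induction hz : G.ends y using Sym2.ind with
        | _ p q =>
          rcases hE y p q hz with h2 | h2
          · exact ⟨q, p, Sym2.eq_swap, h2⟩
          · exact ⟨p, q, rfl, h2⟩
      have hanc' : ∀ w, y ∈ M G le π w (π w) → le w p := by
        rintro w ⟨p', q', hy', hp', -⟩
        have h3 : le w p' := path_self_le le hp'
        rw [hpq] at hy'
        rcases Sym2.eq_iff.1 hy' with ⟨h4, _⟩ | ⟨_, h4⟩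
        · rw [h4]; exact h3
        · rw [← h4] at h3
          exact hpo.trans _ _ _ h3 hqp
      rcases hchain p u v (hanc' u hyu) (hanc' v hyv) with h1 | h1
      · exact M_disj G le ⟨h1, huv⟩ (hπ u (hnonroot u hu.1)).1.2 hyv hyu
      · exact M_disj G le ⟨h1, huv.symm⟩ (hπ v (hnonroot v hv.1)).1.2 hyu hyv
    calc ∑ u ∈ Xg, (M G le π u (π u)).ncard = ∑ u ∈ Xg, (F u).card :=
          Finset.sum_congr rfl (fun u _ => (hFc u).symm)
      _ = (Xg.biUnion F).card := (Finset.card_biUnion hdisj).symm
      _ ≤ (G.cut S).ncard := by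
          rw [← Set.ncard_coe_finset]
          apply Set.ncard_le_ncard _ (Set.toFinite _)
          intro y hy
          simp only [Finset.coe_biUnion, Set.mem_iUnion] at hy
          obtain ⟨u, hu, hy⟩ := hy
          simp only [hXg, Finset.coe_filter, Finset.mem_univ, true_and, Set.mem_ofPred_eq] at hu
          simp only [hF, Finset.coe_filter, Finset.mem_univ, true_and, Set.mem_ofPred_eq] at hy
          exact hu.2.2 hy
  -- conclusion
  have h1le : 1 ≤ h := by
    have h1 := hh r
    have h2 : 0 < {a | le a r}.ncard := by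
      rw [Set.ncard_pos (Set.toFinite _)]
      exact ⟨r, hpo.refl r⟩
    omega
  have hfinal : (T ∩ G.cut S).ncard * k ≤ (h - 1) ^ 2 * (G.cut S).ncard := by
    calc (T ∩ G.cut S).ncard * k ≤ X.card * k := Nat.mul_le_mul_right k hT1
      _ ≤ ((h - 1) * Xg.card) * k := Nat.mul_le_mul_right k hXle
      _ = (h - 1) * (Xg.card * k) := by ring
      _ ≤ (h - 1) * ((h - 1) * (G.cut S).ncard) :=
        Nat.mul_le_mul_left _ (hXgk.trans (Nat.mul_le_mul_left _ hdc))
      _ = (h - 1) ^ 2 * (G.cut S).ncard := by ring
  have hkpos : (0 : ℝ) < k := by exact_mod_cast hk1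
  rw [div_mul_eq_mul_div, le_div_iff₀ hkpos]
  have hcast : ((T ∩ G.cut S).ncard : ℝ) * k ≤ (((h - 1 : ℕ) : ℝ)) ^ 2 * ((G.cut S).ncard : ℝ) := by
    exact_mod_cast hfinal
  rw [Nat.cast_sub h1le, Nat.cast_one] at hcast
  exact hcast

end Vale.Agent.H8.P061
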